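import Vale.Agent.H24.GSH.S2
import Vale.Agent.H24.GSH.C
import Vale.Agent.H5.GSH.D
import Vale.Agent.H25.GSH.G
import Vale.Agent.H25.GSH.A
import Vale.Agent.H25.GSH.Perm

/-! P329: languages of generalized star height at most one. -/

namespace Vale.Agent.Results.P329.IncreasingCycles

open Vale.Agent.H24.GSH

/-- The language `L` is recognized by the monoid `M`: membership of a word in `L` depends only on
its image under a morphism `φ : α* → M`. -/
def Recognized {α : Type} (M : Type) [Monoid M] (L : Set (List α)) : Prop :=
  ∃ (φ : α → M) (T : Set M), L = {w | (w.map φ).prod ∈ T}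

/-- Every letter acts as an order preserving partial injection on the states different from the
base state `none` (as long as the base state is not reached). -/
def OrderPreservingOffBase {α Q : Type} [LinearOrder Q] (δ : Option Q → α → Option Q) : Prop :=
  ∀ a p q p' q', p < q → δ (some p) a = some p' → δ (some q) a = some q' → p' < q'

/-- Every letter moves the states different from the base state `none` upwards (as long as the base
state is not reached). -/
def ExtensiveOffBase {α Q : Type} [LinearOrder Q] (δ : Option Q → α → Option Q) : Prop :=
  ∀ a p p', δ (some p) a = some p' → p ≤ p'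

theorem crit {α Q : Type} [Fintype α] [DecidableEq α] [Fintype Q] [LinearOrder Q]
    (δ : Option Q → α → Option Q) (hm : Mono (fun q a => δ (some q) a)) (i j : Option Q) :
    H 1 {w : List α | w.foldl δ i = j} :=
  RowC.criterion_of δ (fun i j => sf_run _ hm i j) i j

theorem mach : RowG.MachineStmt := fun c a x y =>
  Vale.Agent.H5.GSH.machine (fun _ _ _ _ _ _ δ hm i j => crit δ hm i j) c a x y

/-- the transpositions of the base point generate the symmetric group -/
theorem closure_star (Q : Type) [Finite Q] [DecidableEq Q] :
    Subgroup.closure (Set.range fun i : Q => Equiv.swap (none : Option Q) (some i)) = ⊤ := by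
  rw [eq_top_iff, ← Equiv.Perm.closure_isSwap, Subgroup.closure_le]
  rintro σ ⟨x, y, hxy, rfl⟩
  have h1 : ∀ i : Q, Equiv.swap (none : Option Q) (some i) ∈
      Subgroup.closure (Set.range fun i : Q => Equiv.swap (none : Option Q) (some i)) :=
    fun i => Subgroup.subset_closure ⟨i, rfl⟩
  cases x with
  | none =>
    cases y with
    | none => exact absurd rfl hxy
    | some j => exact h1 j
  | some i =>
    cases y with
    | none =>
      rw [Equiv.swap_comm]
      exact h1 i
    | some j =>
      have hij : i ≠ j := fun h => hxy (by rw [h])
      have e : Equiv.swap (some i) (some j) = Equiv.swap (none : Option Q) (some i) *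
          Equiv.swap none (some j) * Equiv.swap none (some i) := by
        rw [Equiv.swap_comm none (some j), Equiv.swap_mul_swap_mul_swap]
        · simp
        · simpa using hij.symm
      rw [SetLike.mem_coe, e]
      exact Subgroup.mul_mem _ (Subgroup.mul_mem _ (h1 i) (h1 j)) (h1 i)

/-- Languages of generalized star height at most one (`H 1 L`: some generalized regular expression
of star height at most `1` denotes `L`). -/
theorem result :
    -- (1) all languages recognized by a finite group which is an elementary abelian `2`-group
    -- extended by (a subgroup of) `ℤ/3`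
    (∀ (G : Type) [Group G] [Finite G] (π : G →* Multiplicative (ZMod 3)),
      (∀ g, π g = 1 → g * g = 1) →
      ∀ (α : Type) [Fintype α] (L : Set (List α)), Recognized G L → H 1 L) ∧
    -- (2) in particular all languages recognized by the alternating group `A_4`
    (∀ (α : Type) [Fintype α] (L : Set (List α)), Recognized (alternatingGroup (Fin 4)) L →
      H 1 L) ∧
    -- (3) all languages recognized by a group of permutations of the points `none, some q`, if
    -- every letter is an increasing cycle through `none` (every point different from `none` is
    -- moved upwards or to `none`)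
    (∀ (Q α : Type) [Fintype Q] [LinearOrder Q] [Fintype α] (φ : α → Equiv.Perm (Option Q)),
      (∀ a p p', φ a (some p) = some p' → p ≤ p') →
      ∀ T : Set (Equiv.Perm (Option Q)), H 1 {w : List α | (w.map φ).prod ∈ T}) ∧
    -- (4) in particular, this holds if the letters are all transpositions of the base point, and
    -- these generate the whole symmetric group
    (∀ (Q : Type) [Fintype Q] [DecidableEq Q],
      Subgroup.closure (Set.range fun i : Q => Equiv.swap (none : Option Q) (some i)) = ⊤ ∧
      ∀ T : Set (Equiv.Perm (Option Q)),
        H 1 {w : List Q | (w.map fun i => Equiv.swap none (some i)).prod ∈ T}) ∧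
    -- (5) all languages accepted by an automaton whose letters are all order preserving partial
    -- injections, or all extensive, off a base state
    (∀ (α Q : Type) [Fintype α] [Fintype Q] [LinearOrder Q] (δ : Option Q → α → Option Q),
      (OrderPreservingOffBase δ ∨ ExtensiveOffBase δ) → ∀ (i : Option Q) (A : Set (Option Q)),
      H 1 {w : List α | w.foldl δ i ∈ A}) := by
  classical
  have h1 : ∀ (G : Type) [Group G] [Finite G] (π : G →* Multiplicative (ZMod 3)),
      (∀ g, π g = 1 → g * g = 1) →
      ∀ (α : Type) [Fintype α] (L : Set (List α)), Recognized G L → H 1 L := by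
    rintro G _ _ π hπ α _ L ⟨φ, T, rfl⟩
    exact RowG.group_result_of mach π hπ φ T
  have h3 : ∀ (Q α : Type) [Fintype Q] [LinearOrder Q] [Fintype α]
      (φ : α → Equiv.Perm (Option Q)),
      (∀ a p p', φ a (some p) = some p' → p ≤ p') →
      ∀ T : Set (Equiv.Perm (Option Q)), H 1 {w : List α | (w.map φ).prod ∈ T} :=
    fun Q α _ _ _ φ hφ T => Perm.perm_asc φ hφ T
  refine ⟨h1, ?_, h3, ?_, ?_⟩
  · intro α _ L hL
    obtain ⟨π, hπ⟩ := RowA.alt_hom
    exact h1 _ π hπ α L hL
  · intro Q _ _
    refine ⟨closure_star Q, fun T => ?_⟩
    let e := Fintype.equivFin Q
    let _ : LinearOrder Q := LinearOrder.lift' e e.injective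
    have h4 := h3 Q Q (fun i => Equiv.swap none (some i)) (by
      intro a p p' h
      by_cases hp : p = a
      · rw [hp, Equiv.swap_apply_right] at h
        exact absurd h (by simp)
      · rw [Equiv.swap_apply_of_ne_of_ne (by simp) (by simpa using hp)] at h
        exact (Option.some.inj h).le) T
    convert h4 using 8
  · intro α Q _ _ _ δ hδ i A
    have h5 : ∀ j, H 1 {w : List α | w.foldl δ i = j} := by
      intro j
      rcases hδ with hδ | hδ
      · exact crit δ (fun a p q p' q' => hδ a p q p' q') i j
      · exact Perm.crit_ext δ (fun q a q' h => hδ a q q' h) i j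
    have h2 := H_iUnion_prop (α := α) (k := 1) (fun j : Option Q => j ∈ A)
      (fun j => {w | w.foldl δ i = j}) (fun j _ => h5 j)
    convert h2 using 1
    ext w
    simp

end Vale.Agent.Results.P329.IncreasingCycles
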