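import Vale.Agent.H24.GSH.S2
import Vale.Agent.H24.GSH.C
import Vale.Agent.H5.GSH.D
import Vale.Agent.H2.GSH.N
import Vale.Agent.H25.GSH.G
import Vale.Agent.H25.GSH.A

/-! P329: languages of generalized star height at most one. -/

namespace Vale.Agent.Results.P329.StarHeightOne

open Vale.Agent.H24.GSH

/-- The language `L` is recognized by the monoid `M`: membership of a word in `L` depends only on
its image under a morphism `φ : α* → M`. -/
def Recognized {α : Type} (M : Type) [Monoid M] (L : Set (List α)) : Prop :=
  ∃ (φ : α → M) (T : Set M), L = {w | (w.map φ).prod ∈ T}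

/-- Every letter acts as an order preserving partial injection on the states different from the
base state `none` (as long as the base state is not reached). -/
def OrderPreservingOffBase {α Q : Type} [LinearOrder Q] (δ : Option Q → α → Option Q) : Prop :=
  ∀ a p q p' q', p < q → δ (some p) a = some p' → δ (some q) a = some q' → p' < q'

theorem crit {α Q : Type} [Fintype α] [DecidableEq α] [Fintype Q] [LinearOrder Q]
    (δ : Option Q → α → Option Q) (hm : Mono (fun q a => δ (some q) a)) (i j : Option Q) :
    H 1 {w : List α | w.foldl δ i = j} :=
  RowC.criterion_of δ (fun i j => sf_run _ hm i j) i j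

theorem mach : RowG.MachineStmt := fun c a x y =>
  Vale.Agent.H5.GSH.machine (fun _ _ _ _ _ _ δ hm i j => crit δ hm i j) c a x y

/-- Languages of generalized star height at most one (`H 1 L`: some generalized regular expression
of star height at most `1` denotes `L`). -/
theorem result :
    -- all languages recognized by a finite group which is an elementary abelian `2`-group
    -- extended by (a subgroup of) `ℤ/3`
    (∀ (G : Type) [Group G] [Finite G] (π : G →* Multiplicative (ZMod 3)),
      (∀ g, π g = 1 → g * g = 1) →
      ∀ (α : Type) [Fintype α] (L : Set (List α)), Recognized G L → H 1 L) ∧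
    -- in particular all languages recognized by the alternating group `A_4`
    (∀ (α : Type) [Fintype α] (L : Set (List α)), Recognized (alternatingGroup (Fin 4)) L →
      H 1 L) ∧
    -- all languages recognized by the symmetric group on `n + 1` points, if the letters are the
    -- `n` transpositions `(none, i)`
    (∀ (n : ℕ) (T : Set (Equiv.Perm (Option (Fin n)))),
      H 1 {w : List (Fin n) | (w.map fun i => Equiv.swap none (some i)).prod ∈ T}) ∧
    -- all languages accepted by an automaton whose letters are order preserving off a base state
    (∀ (α Q : Type) [Fintype α] [Fintype Q] [LinearOrder Q] (δ : Option Q → α → Option Q),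
      OrderPreservingOffBase δ → ∀ (i : Option Q) (A : Set (Option Q)),
      H 1 {w : List α | w.foldl δ i ∈ A}) := by
  classical
  have h1 : ∀ (G : Type) [Group G] [Finite G] (π : G →* Multiplicative (ZMod 3)),
      (∀ g, π g = 1 → g * g = 1) →
      ∀ (α : Type) [Fintype α] (L : Set (List α)), Recognized G L → H 1 L := by
    rintro G _ _ π hπ α _ L ⟨φ, T, rfl⟩
    exact RowG.group_result_of mach π hπ φ T
  refine ⟨h1, ?_, ?_, ?_⟩
  · intro α _ L hL
    obtain ⟨π, hπ⟩ := RowA.alt_hom
    exact h1 _ π hπ α L hL
  · intro n T
    exact N.star_transpositions_of (fun δ hm i j => crit δ hm i j) T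
  · intro α Q _ _ _ δ hδ i A
    have h2 := H_iUnion_prop (α := α) (k := 1) (fun j : Option Q => j ∈ A)
      (fun j => {w | w.foldl δ i = j}) (fun j _ => crit δ (fun a p q p' q' => hδ a p q p' q') i j)
    convert h2 using 1
    ext w
    simp

end Vale.Agent.Results.P329.StarHeightOne
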