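import Vale.Agent.H24.GSH.Asm
import Vale.Agent.H24.GSH.CFDef
import Vale.Agent.H7.GSH.CF
import Vale.Agent.H29.GSH.R

namespace Vale.Agent.Results.P329.TwoByThree
open Vale.Agent.H24.GSH

/-- Languages of generalized star height at most one. -/
theorem result :
    -- every language recognized by the transition monoid of a finite automaton with a base state
    -- `none` such that no word induces a nontrivial cycle avoiding the base state
    (∀ (α Q : Type) [Fintype α] [Fintype Q] (δ : Option Q → α → Option Q),
      CF (fun (q : Q) a => δ (some q) a) → ∀ T : Set (Option Q → Option Q),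
      H 1 {w : List α | (fun i => w.foldl δ i) ∈ T}) ∧
    -- all languages recognized by a group with finitely many morphisms to `ℤ/3` whose common
    -- kernel has exponent `2` (elementary abelian `2`-groups extended by elementary abelian
    -- `3`-groups)
    (∀ (G : Type) [Group G] (ι : Type) [Finite ι] (π : ι → G →* Multiplicative (ZMod 3)),
      (∀ g, (∀ i, π i g = 1) → g * g = 1) →
      ∀ (α : Type) [Fintype α] (L : Set (List α)), Recognized G L → H 1 L) ∧
    -- in particular all languages recognized by the alternating group `A_4`
    (∀ (α : Type) [Fintype α] (L : Set (List α)), Recognized (alternatingGroup (Fin 4)) L →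
      H 1 L) ∧
    -- the symmetric group on `n + 1` points, letters = the `n` transpositions `(none, i)`
    (∀ (n : ℕ) (T : Set (Equiv.Perm (Option (Fin n)))),
      H 1 {w : List (Fin n) | (w.map fun i => Equiv.swap none (some i)).prod ∈ T}) ∧
    -- the alternating group on `n + 1` points, letters = the 3-cycles `none → i → j → none`, `i < j`
    (∀ (n : ℕ) (T : Set (Equiv.Perm (Option (Fin n)))),
      H 1 {w : List {p : Fin n × Fin n // p.1 < p.2} |
        (w.map fun p => cyc3 p.1.1 p.1.2).prod ∈ T}) := by
  classical
  have h1 : ∀ (G : Type) [Group G] (ι : Type) [Finite ι] (π : ι → G →* Multiplicative (ZMod 3)),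
      (∀ g, (∀ i, π i g = 1) → g * g = 1) →
      ∀ (α : Type) [Fintype α] (L : Set (List α)), Recognized G L → H 1 L := by
    rintro G _ ι _ π hπ α _ L ⟨φ, T, rfl⟩
    have := Fintype.ofFinite ι
    exact Vale.Agent.H29.GSH.R.group_result_three π hπ φ T
  refine ⟨?_, h1, ?_, ?_, ?_⟩
  · intro α Q _ _ δ hm T
    exact criterion_rec δ hm T
  · intro α _ L hL
    obtain ⟨π, hπ⟩ := RowA.alt_hom
    exact h1 _ Unit (fun _ => π) (fun g hg => hπ g (hg ())) α L hL
  · intro n T
    exact star_transpositions T
  · intro n T
    exact NCF.three_cycles_of (fun δ hm i j => criterion_cf δ hm i j) T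

end Vale.Agent.Results.P329.TwoByThree
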